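import Vale.Agent.P043.Closure

/-! # P043: the periodic tiling conjecture for product tiles -/

namespace Vale.Agent.Results.P043.ProductTiles

open Vale.Agent.P043

/-- The periodic tiling conjecture holds in every dimension for products of one-dimensional
sets; and the class of sets for which tiling implies periodic tiling is closed under finite
products. -/
theorem result :
    (∀ (d : ℕ) (A : Fin d → Finset ℤ), (∀ i, (A i).Nonempty) →
      (∃ T : Set (Fin d → ℤ), Tiling (Set.pi Set.univ fun i => (A i : Set ℤ)) T) →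
      ∃ T : Set (Fin d → ℤ), Tiling (Set.pi Set.univ fun i => (A i : Set ℤ)) T ∧ Periodic T) ∧
    ∀ (ι : Type) [Finite ι] (G : ι → Type) [∀ i, AddCommGroup (G i)] (A : ∀ i, Set (G i)),
      (∀ i, (∃ S, Tiling (A i) S) → ∃ S, Tiling (A i) S ∧ Periodic S) →
      (∃ T, Tiling (Set.pi Set.univ A) T) →
      ∃ T, Tiling (Set.pi Set.univ A) T ∧ Periodic T :=
  ⟨fun d A hA ⟨T, h⟩ => product_tiles d A hA T h,
    fun _ _ _ _ A hper ⟨T, h⟩ => closure_prod A hper T h⟩

end Vale.Agent.Results.P043.ProductTiles
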